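import Vale.Agent.P254.FSJoin

open MeasureTheory Set

namespace Vale.Agent.Results.P254.Closure

open Vale.Agent.P254

/-- `K` is a convex body for which the conjecture holds, with its equality case -/
def Good {n : ℕ} (K : Set (Fin n → ℝ)) : Prop :=
  IsCompact K ∧ Convex ℝ K ∧ (interior K).Nonempty ∧ ∀ T : Set (Fin n → ℝ), IsSimplex T →
    isoConst K ≤ isoConst T ∧ (isoConst K = isoConst T → IsSimplex K)

theorem good_iff {n : ℕ} {K : Set (Fin n → ℝ)} : Good K ↔ FS.Body K ∧ FS.Gd K :=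
  ⟨fun h => ⟨⟨h.1, h.2.1, h.2.2.1⟩, (FS.gd_iff ⟨h.1, h.2.1, h.2.2.1⟩).2 h.2.2.2⟩,
    fun h => ⟨h.1.cpt, h.1.cvx, h.1.int, (FS.gd_iff h.1).1 h.2⟩⟩

theorem good_of {n : ℕ} {K T : Set (Fin n → ℝ)} (h1 : IsCompact K) (h2 : Convex ℝ K)
    (h3 : (interior K).Nonempty) (hT : IsSimplex T)
    (h : isoConst K ≤ isoConst T ∧ (isoConst K = isoConst T → IsSimplex K)) : Good K :=
  ⟨h1, h2, h3, fun T' hT' => by rwa [isoConst_simplex hT', ← isoConst_simplex hT]⟩

/-- The conjecture for polytopes with at most `n + 2` vertices and near simplices, and its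
stability under affine maps, products, free sums and joins. -/
theorem result :
    (∀ (n : ℕ) (S : Finset (Fin n → ℝ)), S.card ≤ n + 2 →
      (interior (convexHull ℝ (S : Set (Fin n → ℝ)))).Nonempty →
      Good (convexHull ℝ (S : Set (Fin n → ℝ)))) ∧
    (∀ n : ℕ, 1 ≤ n → ∃ η : ℝ, 0 < η ∧ ∀ K T : Set (Fin n → ℝ),
      IsCompact K → Convex ℝ K → (interior K).Nonempty → IsSimplex T → K ⊆ T →
      (1 - η) * (volume T).toReal ≤ (volume K).toReal → Good K) ∧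
    (∀ n : ℕ, 1 ≤ n → ∀ T : Set (Fin n → ℝ), IsSimplex T → ∃ δ : ℝ, 0 < δ ∧
      ∀ K : Set (Fin n → ℝ), IsCompact K → Convex ℝ K → (interior K).Nonempty →
      Metric.hausdorffDist K T < δ → Good K) ∧
    (∀ (n : ℕ) (K : Set (Fin n → ℝ)) (e : (Fin n → ℝ) ≃ᵃ[ℝ] (Fin n → ℝ)),
      Good K → Good (e '' K)) ∧
    (∀ (n m : ℕ) (K : Set (Fin n → ℝ)) (L : Set (Fin m → ℝ)), Good K → Good L →
      (1 ≤ n → 1 ≤ m → Good {z : Fin (n + m) → ℝ | ∃ x ∈ K, ∃ y ∈ L, z = Fin.append x y}) ∧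
      ((0 : Fin n → ℝ) ∈ K → (0 : Fin m → ℝ) ∈ L →
        Good (convexHull ℝ ((fun x => Fin.append x (0 : Fin m → ℝ)) '' K ∪
          (fun y => Fin.append (0 : Fin n → ℝ) y) '' L))) ∧
      Good (convexHull ℝ
        ((fun x => Fin.append (Fin.append x (0 : Fin m → ℝ)) (0 : Fin 1 → ℝ)) '' K ∪
          (fun y => Fin.append (Fin.append (0 : Fin n → ℝ) y) (1 : Fin 1 → ℝ)) '' L))) := by
  refine ⟨fun n S hS hi => good_iff.2 ⟨⟨S.finite_toSet.isCompact_convexHull ℝ,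
    convex_convexHull ℝ _, hi⟩, FS.gd_few S.finite_toSet (by simpa using hS) hi⟩, fun n hn => ?_,
    fun n hn T hT => ?_, fun n K e h => good_iff.2 ⟨(good_iff.1 h).1.image e,
      (good_iff.1 h).2.image (good_iff.1 h).1 e⟩, fun n m K L hK hL => ?_⟩
  · obtain ⟨η, h0, -, h⟩ := local_vol n hn
    exact ⟨η, h0, fun K T hK hc hi hT hs hv => good_of hK hc hi hT (h K T hK hc hT hs hv)⟩
  · obtain ⟨δ, h0, h⟩ := local_haus hn hT
    exact ⟨δ, h0, fun K hK hc hi hd => good_of hK hc hi hT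
      (h K hK hc (hi.mono interior_subset) hd)⟩
  obtain ⟨bK, gK⟩ := good_iff.1 hK
  obtain ⟨bL, gL⟩ := good_iff.1 hL
  refine ⟨fun hn hm => ?_, fun h0 h0' => ?_, ?_⟩
  · have k := FS.sprod_lt bK bL gK.1 gL.1 (by simpa using hn) (by simpa using hm)
    have b := FS.sprod_body bK bL
    refine (congrArg Good ?_).mp (good_iff.2 ⟨b.image (FS.cat n m),
      FS.Gd.image ⟨k.le, fun q => absurd q k.ne⟩ b (FS.cat n m)⟩)
    ext z
    exact ⟨fun ⟨w, hw, q⟩ => ⟨_, hw.1, _, hw.2, by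
      rw [← FS.cat_elim, Sum.elim_comp_inl_inr, q]⟩,
      fun ⟨x, hx, y, hy, q⟩ => ⟨Sum.elim x y, ⟨hx, hy⟩, by rw [FS.cat_elim, q]⟩⟩
  · have b := FS.fsum_body bK h0 bL h0'
    refine (congrArg Good ?_).mp (good_iff.2 ⟨b.image (FS.cat n m),
      (gK.fsum gL bK h0 bL h0').image b (FS.cat n m)⟩)
    rw [FS.fsum_eq bK.cvx h0 bL.cvx h0', ← AffineEquiv.coe_toAffineMap, AffineMap.image_convexHull,
      image_union, image_image, image_image]
    simp only [← FS.cat_elim]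
    rfl
  · obtain ⟨b, g⟩ := FS.gd_join gK gL bK bL
    refine (congrArg Good ?_).mp (good_iff.2 ⟨b.image (FS.cat3 n m), g.image b (FS.cat3 n m)⟩)
    rw [← AffineEquiv.coe_toAffineMap, AffineMap.image_convexHull, image_union, image_image,
      image_image]
    simp only [← FS.cat3_elim]
    rfl

end Vale.Agent.Results.P254.Closure
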