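import Vale.Agent.P254B.FinE
import Vale.Agent.P254B.FinC
import Vale.Agent.Results.P254.Closure

open MeasureTheory Set

namespace Vale.Agent.Results.P254.All

open Vale.Agent.P254

/-- `K` is a convex body for which the conjecture holds, with its equality case -/
def Good {n : ℕ} (K : Set (Fin n → ℝ)) : Prop :=
  IsCompact K ∧ Convex ℝ K ∧ (interior K).Nonempty ∧ ∀ T : Set (Fin n → ℝ), IsSimplex T →
    isoConst K ≤ isoConst T ∧ (isoConst K = isoConst T → IsSimplex K)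

/-- Explicit bounds for all convex bodies, and the sharp conjecture for several classes. -/
theorem result :
    (∀ (n : ℕ) (K : Set (Fin n → ℝ)), 1 ≤ n → IsCompact K → Convex ℝ K → (interior K).Nonempty →
      isoConst K ≤ Real.sqrt (2 / (Real.pi * Real.exp 1)) ∧ ∀ T : Set (Fin n → ℝ), IsSimplex T →
        isoConst K ≤ (2 * Real.exp 1 / Real.pi) ^ (((n : ℝ) + 1) / (2 * n)) * isoConst T) ∧
    (∀ (n : ℕ) (S : Finset (Fin n → ℝ)), S.card ≤ n + 2 →
      (interior (convexHull ℝ (S : Set (Fin n → ℝ)))).Nonempty →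
      Good (convexHull ℝ (S : Set (Fin n → ℝ)))) ∧
    (∀ n : ℕ, 1 ≤ n → ∃ η : ℝ, 0 < η ∧ ∀ K T : Set (Fin n → ℝ),
      IsCompact K → Convex ℝ K → (interior K).Nonempty → IsSimplex T → K ⊆ T →
      (1 - η) * (volume T).toReal ≤ (volume K).toReal → Good K) ∧
    (∀ n : ℕ, 1 ≤ n → ∀ T : Set (Fin n → ℝ), IsSimplex T → ∃ δ : ℝ, 0 < δ ∧
      ∀ K : Set (Fin n → ℝ), IsCompact K → Convex ℝ K → (interior K).Nonempty →
      Metric.hausdorffDist K T < δ → Good K) ∧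
    (∀ (n : ℕ) (K : Set (Fin n → ℝ)) (e : (Fin n → ℝ) ≃ᵃ[ℝ] (Fin n → ℝ)),
      Good K → Good (e '' K)) ∧
    (∀ (n m : ℕ) (K : Set (Fin n → ℝ)) (L : Set (Fin m → ℝ)), Good K → Good L →
      (1 ≤ n → 1 ≤ m → Good {z : Fin (n + m) → ℝ | ∃ x ∈ K, ∃ y ∈ L, z = Fin.append x y}) ∧
      ((0 : Fin n → ℝ) ∈ K → (0 : Fin m → ℝ) ∈ L →
        Good (convexHull ℝ ((fun x => Fin.append x (0 : Fin m → ℝ)) '' K ∪
          (fun y => Fin.append (0 : Fin n → ℝ) y) '' L))) ∧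
      Good (convexHull ℝ
        ((fun x => Fin.append (Fin.append x (0 : Fin m → ℝ)) (0 : Fin 1 → ℝ)) '' K ∪
          (fun y => Fin.append (Fin.append (0 : Fin n → ℝ) y) (1 : Fin 1 → ℝ)) '' L))) :=
  ⟨fun _ _ hn hK hc hi => ⟨Vale.Agent.P254B.iso_le hn hK hc hi,
    fun _ hT => Vale.Agent.P254B.iso_ratio hn hK hc hi hT⟩, Closure.result⟩

end Vale.Agent.Results.P254.All
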