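import Vale.Agent.P254B.FinC

namespace Vale.Agent.Results.P254.Explicit

open Vale.Agent.P254

/-- An explicit dimension-free bound for the isotropic constant of every convex body. -/
theorem result (n : ℕ) (hn : 1 ≤ n) (K : Set (Fin n → ℝ)) (hK : IsCompact K) (hc : Convex ℝ K)
    (hi : (interior K).Nonempty) :
    isoConst K ≤ Real.sqrt (2 / (Real.pi * Real.exp 1)) :=
  Vale.Agent.P254B.iso_le hn hK hc hi

end Vale.Agent.Results.P254.Explicit
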