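import Vale.Agent.P254B.FinE

namespace Vale.Agent.Results.P254.Ratio

open Vale.Agent.P254

/-- The conjectured inequality up to an explicit factor, for every convex body. -/
theorem result (n : ℕ) (hn : 1 ≤ n) (K T : Set (Fin n → ℝ)) (hK : IsCompact K) (hc : Convex ℝ K)
    (hi : (interior K).Nonempty) (hT : IsSimplex T) :
    isoConst K ≤ (2 * Real.exp 1 / Real.pi) ^ (((n : ℝ) + 1) / (2 * n)) * isoConst T :=
  Vale.Agent.P254B.iso_ratio hn hK hc hi hT

end Vale.Agent.Results.P254.Ratio
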