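import Vale.Agent.P254.AHaus

open MeasureTheory

namespace Vale.Agent.Results.P254.ZLocalMax

open Vale.Agent.P254

/-- Simplices are strict local maximisers of the isotropic constant in every dimension. -/
theorem result (n : ℕ) (hn : 1 ≤ n) :
    (∃ η : ℝ, 0 < η ∧ ∀ K T : Set (Fin n → ℝ),
      IsCompact K → Convex ℝ K → (interior K).Nonempty → IsSimplex T → K ⊆ T →
      (1 - η) * (volume T).toReal ≤ (volume K).toReal →
      isoConst K ≤ isoConst T ∧ (isoConst K = isoConst T → IsSimplex K)) ∧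
    (∀ T : Set (Fin n → ℝ), IsSimplex T → ∃ δ : ℝ, 0 < δ ∧ ∀ K : Set (Fin n → ℝ),
      IsCompact K → Convex ℝ K → (interior K).Nonempty → Metric.hausdorffDist K T < δ →
      isoConst K ≤ isoConst T ∧ (isoConst K = isoConst T → IsSimplex K)) := by
  refine ⟨?_, fun T hT => ?_⟩
  · obtain ⟨η, h0, -, h⟩ := local_vol n hn
    exact ⟨η, h0, fun K T hK hc _ hT hs hv => h K T hK hc hT hs hv⟩
  · obtain ⟨δ, h0, h⟩ := local_haus hn hT
    exact ⟨δ, h0, fun K hK hc hi hd => h K hK hc (hi.mono interior_subset) hd⟩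

end Vale.Agent.Results.P254.ZLocalMax
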